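import Vale.Agent.Lib.P028G.Main
import Vale.Agent.Lib.P028G.TauCap
import Vale.Agent.Lib.P028V.Final

open Filter MeasureTheory

namespace Vale.Agent.Results.P028.A000000_shape

/-- Full measure of the shifted limsup set under any one of three divergence conditions. -/
theorem result (γ : ℝ) (ψ : ℕ → ℝ) (hψ : ∀ q, 0 ≤ ψ q)
    (h : (¬ Summable fun q : ℕ => min (ψ q) (1 / (q:ℝ)) * ((Nat.totient q : ℝ) / (q:ℝ))) ∨
      (¬ Summable fun q : ℕ => min (ψ q) (1 / 2) *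
        Real.exp (-(400 * Real.sqrt (Real.log (1 / min (ψ q) (1 / 2)) *
          Real.log (Real.log (1 / min (ψ q) (1 / 2)) + 3))))) ∨
      (∃ c₀ : ℝ, ∃ k : ℕ, 0 < c₀ ∧ 1 ≤ k ∧
          (∀ n : ℕ, 1 ≤ n → c₀ / (n:ℝ) ^ k ≤ |(n:ℝ) * γ - round ((n:ℝ) * γ)|) ∧
        ¬ Summable fun q : ℕ =>
          min (ψ q) (1 / ((q.divisors.card : ℝ) ^ (2048 ^ 2 * k ^ 2 * (k + 2)))))) :
    ∀ᵐ x : ℝ, ∃ᶠ q : ℕ in atTop, |(q:ℝ) * x - γ - round ((q:ℝ) * x - γ)| < ψ q := by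
  rcases h with h | h | ⟨c₀, k, hc₀, hk, hγ, h⟩
  · exact Vale.Agent.Lib.P028V.main_trunc γ ψ hψ h
  · exact Vale.Agent.Lib.P028G.main_G γ ψ hψ h
  · exact Vale.Agent.Lib.P028G.main_tau hc₀ hk hγ ψ hψ h

end Vale.Agent.Results.P028.A000000_shape
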