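import Vale.Agent.Lib.P028T.Final

open Filter MeasureTheory

namespace Vale.Agent.Results.P028.A00_divisorScale

/-- Non-Liouville shifts, no totient weight: truncation only at a divisor-concentration scale `θ`. -/
theorem result (γ c₀ : ℝ) (k : ℕ) (hc₀ : 0 < c₀) (hk : 1 ≤ k)
    (hγ : ∀ n : ℕ, 1 ≤ n → c₀ / (n:ℝ) ^ k ≤ |(n:ℝ) * γ - round ((n:ℝ) * γ)|)
    (ψ θ : ℕ → ℝ) (hψ : ∀ q, 0 ≤ ψ q) (hθ1 : ∀ q, 1 ≤ θ q)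
    (hθ : ∀ q M : ℕ, 1 ≤ q → 1 ≤ M → θ q ≤ (M:ℝ) →
      (((Finset.Ico M (2 * M)).filter (· ∣ q)).card : ℝ) ≤ (M:ℝ) ^ ((1:ℝ) / (2048 * (k:ℝ))))
    (hdiv : ¬ Summable fun q : ℕ => min (ψ q) ((θ q) ^ (-(2048 * (k:ℝ) * ((k:ℝ) + 2))))) :
    ∀ᵐ x : ℝ, ∃ᶠ q : ℕ in atTop, |(q:ℝ) * x - γ - round ((q:ℝ) * x - γ)| < ψ q := by
  have hk0 : (0:ℝ) < k := by exact_mod_cast hk
  refine Vale.Agent.Lib.P028T.main_T2 (γ := γ) (c₀ := c₀) (k := k) hγ hc₀ hk ψ θ hψ hθ1 ?_ hdiv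
  intro q M hq hM hle
  have h := hθ q M hq hM hle
  have e : Vale.Agent.Lib.P028T.cc₃ k = (1:ℝ) / (2048 * (k:ℝ)) := by
    unfold Vale.Agent.Lib.P028T.cc₃ Vale.Agent.Lib.P028T.cc
    field_simp
    norm_num
  rw [e]
  exact h

end Vale.Agent.Results.P028.A00_divisorScale
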