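import Vale.Agent.Lib.P028V.Final

open Filter MeasureTheory

namespace Vale.Agent.Results.P028.A0_vaaler

/-- For every shift and every nonnegative function, divergence of the truncated weighted sum
forces almost every real number into the shifted limsup set. -/
theorem result (γ : ℝ) (ψ : ℕ → ℝ) (hψ : ∀ q, 0 ≤ ψ q)
    (hdiv : ¬ Summable fun q : ℕ => min (ψ q) (1 / (q:ℝ)) * ((Nat.totient q : ℝ) / (q:ℝ))) :
    ∀ᵐ x : ℝ, ∃ᶠ q : ℕ in atTop, |(q:ℝ) * x - γ - round ((q:ℝ) * x - γ)| < ψ q :=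
  Vale.Agent.Lib.P028V.main_trunc γ ψ hψ hdiv

end Vale.Agent.Results.P028.A0_vaaler
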