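import Vale.Agent.Lib.P028.Core6

open Filter MeasureTheory

namespace Vale.Agent.Results.P028.A_main

theorem result (γ : ℝ) (ψ : ℕ → ℝ) (hψ : ∀ q, 0 ≤ ψ q)
    (hdiv : ¬ Summable fun r =>
      ψ r / ((1 + Vale.Agent.Lib.P028.gcdAvg ψ r) *
        (1 + Real.log (1 + Vale.Agent.Lib.P028.gcdAvg ψ r)) ^ 2)) :
    ∀ᵐ x : ℝ, ∃ᶠ q : ℕ in atTop, |(q:ℝ) * x - γ - round ((q:ℝ) * x - γ)| < ψ q :=
  Vale.Agent.Lib.P028.main_theorem γ ψ hψ hdiv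

end Vale.Agent.Results.P028.A_main
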