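import Vale.Agent.Lib.P028.Cor

open Filter MeasureTheory

namespace Vale.Agent.Results.P028.B_primes

theorem result (γ : ℝ) (ψ : ℕ → ℝ) (hψ : ∀ q, 0 ≤ ψ q)
    (hsupp : ∀ q r, ψ q ≠ 0 → ψ r ≠ 0 → q ≠ r → Nat.Coprime q r) (hdiv : ¬ Summable ψ) :
    ∀ᵐ x : ℝ, ∃ᶠ q : ℕ in atTop, |(q:ℝ) * x - γ - round ((q:ℝ) * x - γ)| < ψ q :=
  Vale.Agent.Lib.P028.main_coprime γ ψ hψ hsupp hdiv

end Vale.Agent.Results.P028.B_primes
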