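import Vale.Agent.Lib.P028E.Main

open Filter MeasureTheory

namespace Vale.Agent.Results.P028.C_powerExcess

/-- Every shift, no totient weight: divergence of a power of `ψ` slightly above one
forces almost every real number into the shifted limsup set. -/
theorem result (γ ε : ℝ) (hε : 0 < ε) (ψ : ℕ → ℝ) (hψ : ∀ q, 0 ≤ ψ q)
    (hdiv : ¬ Summable fun q : ℕ => (min (ψ q) 1) ^ (1 + ε)) :
    ∀ᵐ x : ℝ, ∃ᶠ q : ℕ in atTop, |(q:ℝ) * x - γ - round ((q:ℝ) * x - γ)| < ψ q :=
  Vale.Agent.Lib.P028E.main_E γ hε ψ hψ hdiv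

end Vale.Agent.Results.P028.C_powerExcess
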