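import Vale.Agent.Lib.P028T.Final

open Filter MeasureTheory

namespace Vale.Agent.Results.P028.C_powerRange

/-- Non-Liouville shifts, no totient weight, in the range `ψ(q) ≤ q^(-δ)` for any `δ > 0`. -/
theorem result (γ c₀ : ℝ) (k : ℕ) (hc₀ : 0 < c₀) (hk : 1 ≤ k)
    (hγ : ∀ n : ℕ, 1 ≤ n → c₀ / (n:ℝ) ^ k ≤ |(n:ℝ) * γ - round ((n:ℝ) * γ)|)
    (δ : ℝ) (hδ : 0 < δ) (ψ : ℕ → ℝ) (hψ : ∀ q, 0 ≤ ψ q)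
    (hdiv : ¬ Summable fun q : ℕ => min (ψ q) ((q:ℝ) ^ (-δ))) :
    ∀ᵐ x : ℝ, ∃ᶠ q : ℕ in atTop, |(q:ℝ) * x - γ - round ((q:ℝ) * x - γ)| < ψ q :=
  Vale.Agent.Lib.P028T.main_T (γ := γ) (c₀ := c₀) (k := k) (δ := δ) hγ hc₀ hk hδ ψ hψ hdiv

end Vale.Agent.Results.P028.C_powerRange
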