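import Vale.Agent.Lib.P028E.Main
import Vale.Agent.Lib.P028V.Final
import Vale.Agent.Lib.P028T.Final

open Filter MeasureTheory

namespace Vale.Agent.Results.P028.C_shape

/-- Full measure of the shifted limsup set under any one of three divergence conditions. -/
theorem result (γ : ℝ) (ψ : ℕ → ℝ) (hψ : ∀ q, 0 ≤ ψ q)
    (h : (¬ Summable fun q : ℕ => min (ψ q) (1 / (q:ℝ)) * ((Nat.totient q : ℝ) / (q:ℝ))) ∨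
      (∃ ε : ℝ, 0 < ε ∧ ¬ Summable fun q : ℕ => (min (ψ q) 1) ^ (1 + ε)) ∨
      ((∃ c₀ : ℝ, ∃ k : ℕ, 0 < c₀ ∧ 1 ≤ k ∧
          ∀ n : ℕ, 1 ≤ n → c₀ / (n:ℝ) ^ k ≤ |(n:ℝ) * γ - round ((n:ℝ) * γ)|) ∧
        ∃ δ : ℝ, 0 < δ ∧ ¬ Summable fun q : ℕ => min (ψ q) ((q:ℝ) ^ (-δ)))) :
    ∀ᵐ x : ℝ, ∃ᶠ q : ℕ in atTop, |(q:ℝ) * x - γ - round ((q:ℝ) * x - γ)| < ψ q := by
  rcases h with h | ⟨ε, hε, h⟩ | ⟨⟨c₀, k, hc₀, hk, hγ⟩, δ, hδ, h⟩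
  · exact Vale.Agent.Lib.P028V.main_trunc γ ψ hψ h
  · exact Vale.Agent.Lib.P028E.main_E γ hε ψ hψ h
  · exact Vale.Agent.Lib.P028T.main_T (γ := γ) (c₀ := c₀) (k := k) (δ := δ) hγ hc₀ hk hδ ψ hψ h

end Vale.Agent.Results.P028.C_shape
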